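import Vale.Agent.P088.R2.H850.E.Ws

/-!
# P088, stage 3: gluing, the payment only where both cut-offs do not vanish

The costs of the zone `k` vanish off the closed support of the cut-off `χ_k`. Then the payment of
the pair `k, j` is needed only where `χ_k ≠ 0` and `χ_j ≠ 0`: the set where for every `k` either
`χ_k ≠ 0` or the point is off the closed support of `χ_k` is open and dense, and the densities of
test functions are continuous.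
-/

open MeasureTheory Set Filter
open scoped ContDiff Topology

noncomputable section

namespace Vale.Agent.P088.R2.H558.G

open Vale.Agent.P088.R2.H961.GW Vale.Agent.P088.R2.H960.W Vale.Agent.P088.R2.H644
open Vale.Agent.P088.R2.H551.E Vale.Agent.P088.R2.H850.E

variable {E ι α : Type*} [NormedAddCommGroup E] [NormedSpace ℝ E] [Fintype ι]

/-- All the coefficients vanish at the point. -/
structure Zr (q : Q8 E) (z : E) : Prop where
  κ : q.κ z = 0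
  ζ₁ : q.ζ₁ z = 0
  ζ₂ : q.ζ₂ z = 0
  ζy : q.ζy z = 0
  w₁ : q.w₁ z = 0
  w₂ : q.w₂ z = 0
  wb : q.wb z = 0
  wc : q.wc z = 0

variable {σ τ : Sl E ι} {θ v₁ v₂ W a b f : E → ℝ} {z : E} {q : Q8 E}

theorem Zr.dens (h : Zr q z) : q.dens σ τ v₁ v₂ W a b z = 0 := by
  unfold Q8.dens
  rw [h.κ, h.ζ₁, h.ζ₂, h.ζy, h.w₁, h.w₂, h.wb, h.wc]
  ring

theorem dens_ct (ok : σ.Ok univ θ) (ot : τ.Ok univ θ) (hv₁ : Sm univ v₁) (hv₂ : Sm univ v₂)
    (hW : Sm univ W) (ha : Te univ a) (hb : Te univ b) (hq : q.Ct univ) :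
    Continuous (q.dens σ τ v₁ v₂ W a b) := by
  have c0 := (tsqd ok ot hv₁ hv₂ hW ha hb).1.continuous
  have c1 := (tnX ok hW ha).1.continuous
  have c2 := (tnX ot hW hb).1.continuous
  have c3 := (tnY ok ot hW ha hb).1.continuous
  have ca := ha.1.continuous
  have cb := hb.1.continuous
  have k0 := continuousOn_univ.1 hq.κ
  have k1 := continuousOn_univ.1 hq.ζ₁
  have k2 := continuousOn_univ.1 hq.ζ₂
  have k3 := continuousOn_univ.1 hq.ζy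
  have k4 := continuousOn_univ.1 hq.w₁
  have k5 := continuousOn_univ.1 hq.w₂
  have k6 := continuousOn_univ.1 hq.wb
  have k7 := continuousOn_univ.1 hq.wc
  unfold Q8.dens
  exact (((((((k0.mul c0).add (k1.mul c1)).add (k2.mul c2)).add (k3.mul c3)).add
    (k4.mul (ca.pow 2))).add (k5.mul (cb.pow 2))).add (k6.mul ((ca.add cb).pow 2))).add
    (k7.mul ((ca.sub cb).pow 2))

/-! ## The dense set -/

/-- The points which are not in the boundary of the support of one of the cut-offs. -/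
def Gd (S : Finset α) (χ : α → E → ℝ) : Set E := {z | ∀ k ∈ S, χ k z ≠ 0 ∨ z ∉ tsupport (χ k)}

omit [NormedSpace ℝ E] in
theorem one_od (hf : Continuous f) :
    IsOpen {z | f z ≠ 0 ∨ z ∉ tsupport f} ∧ Dense {z | f z ≠ 0 ∨ z ∉ tsupport f} := by
  have e : {z | f z ≠ 0 ∨ z ∉ tsupport f} = Function.support f ∪ (tsupport f)ᶜ := rfl
  rw [e]
  refine ⟨(hf.isOpen_support).union (isClosed_tsupport f).isOpen_compl, fun z => ?_⟩
  by_cases hz : z ∈ tsupport f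
  · exact closure_mono subset_union_left hz
  · exact subset_closure (Or.inr hz)

omit [NormedSpace ℝ E] in
theorem Gd_od (S : Finset α) {χ : α → E → ℝ} (hχ : ∀ k ∈ S, Continuous (χ k)) :
    IsOpen (Gd S χ) ∧ Dense (Gd S χ) := by
  classical
  induction S using Finset.induction_on with
  | empty =>
    have e : Gd (∅ : Finset α) χ = univ := by
      ext z
      simp [Gd]
    rw [e]
    exact ⟨isOpen_univ, dense_univ⟩
  | insert k S _ ih =>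
    have h1 := ih fun j hj => hχ j (Finset.mem_insert_of_mem hj)
    have h2 := one_od (hχ k (Finset.mem_insert_self k S))
    have e : Gd (insert k S) χ = {z | χ k z ≠ 0 ∨ z ∉ tsupport (χ k)} ∩ Gd S χ := by
      ext z
      simp [Gd]
    rw [e]
    exact ⟨h2.1.inter h1.1, h2.2.inter_of_isOpen_left h1.2 h2.1⟩

omit [NormedSpace ℝ E] in
/-- A closed inequality which holds on the dense set holds everywhere. -/
theorem le_of_Gd (S : Finset α) {χ : α → E → ℝ} (hχ : ∀ k ∈ S, Continuous (χ k)) {f g : E → ℝ}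
    (hf : Continuous f) (hg : Continuous g) (h : ∀ z ∈ Gd S χ, f z ≤ g z) (z : E) :
    f z ≤ g z := by
  have h1 : IsClosed {z | f z ≤ g z} := isClosed_le hf hg
  have h2 := h1.closure_subset_iff.2 (fun z hz => h z hz : Gd S χ ⊆ {z | f z ≤ g z})
  exact h2 ((Gd_od S hχ).2 z)

/-! ## Gluing -/

section int

variable [MeasureSpace E] [FiniteDimensional ℝ E] [BorelSpace E]
  [(volume : Measure E).IsAddHaarMeasure]

/-- **Gluing with the weight `ws` and gains**, the payments on the dense open set `Gd`. -/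
theorem glue_wsG (ok : σ.Ok univ θ) (ot : τ.Ok univ θ) (c : Cm σ τ univ) (hv₁ : Sm univ v₁)
    (hv₂ : Sm univ v₂) (h₁ : ∀ z ∈ (univ : Set E), ∀ k, τ.D k v₁ z = 0)
    (h₂ : ∀ z ∈ (univ : Set E), ∀ i, σ.D i v₂ z = 0)
    (hW : Sm univ W) (S : Finset α) {χ : α → E → ℝ} (hχ : ∀ k ∈ S, Sm univ (χ k))
    (h1 : ∀ z, ∑ k ∈ S, χ k z ^ 2 = 1) {M co : α → Q8 E} {κ₀ ζ₀ : E → ℝ}
    (cκ : Continuous κ₀) (cζ : Continuous ζ₀)
    (cM : ∀ k ∈ S, ((M k).sm fun z => χ k z ^ 2).Ct univ) (cc : ∀ k ∈ S, (co k).Ct univ)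
    (zone : ∀ k ∈ S, Zone σ τ univ θ v₁ v₂ W (χ k) ((M k).sm fun z => χ k z ^ 2) (co k))
    (hn : ∀ z, ∀ j ∈ S, χ j z ≠ 0 → Nn (M j) z)
    (hκ : ∀ z, ∀ j ∈ S, χ j z ≠ 0 → 4 * κ₀ z ≤ (M j).κ z)
    (hζ₁ : ∀ z, ∀ j ∈ S, χ j z ≠ 0 → 4 * ζ₀ z ≤ (M j).ζ₁ z)
    (hζ₂ : ∀ z, ∀ j ∈ S, χ j z ≠ 0 → 4 * ζ₀ z ≤ (M j).ζ₂ z)
    (hco : ∀ z ∈ Gd S χ, ∀ k ∈ S, ∀ j ∈ S, χ j z ≠ 0 → ∀ a b : E → ℝ,
      2 * S.card * (co k).dens σ τ v₁ v₂ W a b z ≤ (M j).dens σ τ v₁ v₂ W a b z)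
    (ha : Te univ a) (hb : Te univ b) :
    In univ θ (fun z => κ₀ z * sqd σ τ v₁ v₂ W a b z + ζ₀ z * (nX σ W a z + nX τ W b z) +
      ws S χ M z * (a z ^ 2 + b z ^ 2)) ≤ TT σ τ univ θ v₁ v₂ W a b := by
  have cm : (mw κ₀ ζ₀ (ws S χ M)).Ct univ :=
    mw_ct cκ.continuousOn cζ.continuousOn (ws_cont cM)
  have pay : ∀ z, (mw κ₀ ζ₀ (ws S χ M)).dens σ τ v₁ v₂ W a b z +
      ∑ k ∈ S, (co k).dens σ τ v₁ v₂ W a b z ≤
      ∑ k ∈ S, ((M k).sm fun z => χ k z ^ 2).dens σ τ v₁ v₂ W a b z := by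
    refine le_of_Gd S (χ := χ) (fun k hk => continuousOn_univ.1 (hχ k hk).continuousOn) ?_ ?_ ?_
    · exact (dens_ct ok ot hv₁ hv₂ hW ha hb cm).add
        (continuous_finsetSum S fun k hk => dens_ct ok ot hv₁ hv₂ hW ha hb (cc k hk))
    · exact continuous_finsetSum S fun k hk => dens_ct ok ot hv₁ hv₂ hW ha hb (cM k hk)
    · intro z hz
      exact pay_ws (h1 z) (hn z) (hκ z) (hζ₁ z) (hζ₂ z) fun k hk j hj h0 =>
        hco z hz k hk j hj h0 a b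
  have h := T_glue ok ot c hv₁ hv₂ h₁ h₂ hW ha hb S hχ (fun z _ => h1 z)
    (Q8.int_dens ok ot hv₁ hv₂ hW ha hb cm)
    (fun k hk => Q8.int_dens ok ot hv₁ hv₂ hW ha hb (cM k hk))
    (fun k hk => Q8.int_dens ok ot hv₁ hv₂ hW ha hb (cc k hk))
    (fun k hk => zone k hk a b ha hb) fun z _ => pay z
  have e : In univ θ (fun z => κ₀ z * sqd σ τ v₁ v₂ W a b z +
      ζ₀ z * (nX σ W a z + nX τ W b z) + ws S χ M z * (a z ^ 2 + b z ^ 2)) =
      In univ θ ((mw κ₀ ζ₀ (ws S χ M)).dens σ τ v₁ v₂ W a b) :=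
    In_congr ok.op fun z _ => (mw_dens _ _ _).symm
  rw [e]
  exact h

/-- **Gluing with the weight `ws` and gains**, the payments only where both cut-offs do not
vanish. -/
theorem glue_wsW (ok : σ.Ok univ θ) (ot : τ.Ok univ θ) (c : Cm σ τ univ) (hv₁ : Sm univ v₁)
    (hv₂ : Sm univ v₂) (h₁ : ∀ z ∈ (univ : Set E), ∀ k, τ.D k v₁ z = 0)
    (h₂ : ∀ z ∈ (univ : Set E), ∀ i, σ.D i v₂ z = 0)
    (hW : Sm univ W) (S : Finset α) {χ : α → E → ℝ} (hχ : ∀ k ∈ S, Sm univ (χ k))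
    (h1 : ∀ z, ∑ k ∈ S, χ k z ^ 2 = 1) {M co : α → Q8 E} {κ₀ ζ₀ : E → ℝ}
    (cκ : Continuous κ₀) (cζ : Continuous ζ₀)
    (cM : ∀ k ∈ S, ((M k).sm fun z => χ k z ^ 2).Ct univ) (cc : ∀ k ∈ S, (co k).Ct univ)
    (zone : ∀ k ∈ S, Zone σ τ univ θ v₁ v₂ W (χ k) ((M k).sm fun z => χ k z ^ 2) (co k))
    (hn : ∀ z, ∀ j ∈ S, χ j z ≠ 0 → Nn (M j) z)
    (hκ : ∀ z, ∀ j ∈ S, χ j z ≠ 0 → 4 * κ₀ z ≤ (M j).κ z)
    (hζ₁ : ∀ z, ∀ j ∈ S, χ j z ≠ 0 → 4 * ζ₀ z ≤ (M j).ζ₁ z)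
    (hζ₂ : ∀ z, ∀ j ∈ S, χ j z ≠ 0 → 4 * ζ₀ z ≤ (M j).ζ₂ z)
    (off : ∀ k ∈ S, ∀ z, z ∉ tsupport (χ k) → Zr (co k) z)
    (hco : ∀ z, ∀ k ∈ S, ∀ j ∈ S, χ k z ≠ 0 → χ j z ≠ 0 → ∀ a b : E → ℝ,
      2 * S.card * (co k).dens σ τ v₁ v₂ W a b z ≤ (M j).dens σ τ v₁ v₂ W a b z)
    (ha : Te univ a) (hb : Te univ b) :
    In univ θ (fun z => κ₀ z * sqd σ τ v₁ v₂ W a b z + ζ₀ z * (nX σ W a z + nX τ W b z) +
      ws S χ M z * (a z ^ 2 + b z ^ 2)) ≤ TT σ τ univ θ v₁ v₂ W a b := by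
  refine glue_wsG ok ot c hv₁ hv₂ h₁ h₂ hW S hχ h1 cκ cζ cM cc zone hn hκ hζ₁ hζ₂
    (fun z hz k hk j hj h0 a b => ?_) ha hb
  rcases hz k hk with h | h
  · exact hco z k hk j hj h h0 a b
  · rw [(off k hk z h).dens, mul_zero]
    exact dens_nonneg (hn z j hj h0)

end int

end Vale.Agent.P088.R2.H558.G
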